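import Mathlib
import Vale.Agent.Lib.P064.LogSqFinal

/-!
# P063: the upper quantile of the property of containing a copy of a fixed graph

Support file for `Vale.Agent.Results.P063.B_SubgraphContainment`: a version of the spread lemma of
`Vale.Agent.Lib.P064` with an arbitrary failure probability, and the resulting bound for the
`(1 - ε)`-quantile of the containment probability in terms of the expectation threshold.
-/

namespace Vale.Agent.Lib.P063

open Vale.Agent.Lib.P064 Finset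

/-- A spread mass function on sets of size less than `2 ^ J`: the union of `J` independent
`p`-random sets misses every set of the support with probability at most `δ`, if
`16 κ ≤ δ p`. -/
theorem spread_success_delta {α : Type*} [DecidableEq α] (X : Finset α) (p κ δ : ℝ)
    (hp0 : 0 < p) (hp1 : p ≤ 1) (hκ0 : 0 ≤ κ) (_hδ0 : 0 < δ) (hδ1 : δ ≤ 1)
    (hκ : 16 * κ ≤ δ * p) (J : ℕ)
    (m : Finset α → ℝ) (hm0 : ∀ A, 0 ≤ m A)
    (hsupp : ∀ A ∈ X.powerset, m A ≠ 0 → A.card < 2 ^ J)
    (hspread : ∀ I : Finset α, ∑ A ∈ X.powerset.filter (fun A => I ⊆ A), m A ≤ 2 * κ ^ I.card)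
    (htot : ∑ A ∈ X.powerset, m A = 1) :
    Pfail X (1 - (1 - p) ^ J) (msupp X m) ≤ δ := by
  have hδp : δ * p ≤ p := by nlinarith
  have hκp : κ ≤ p := by linarith
  have h := rounds_bound X p κ 2 hp0 hp1 hκ0 hκp (by norm_num) J m hm0 hsupp hspread
  rw [htot, one_mul] at h
  have hx0 : 0 ≤ 4 * κ / p := by positivity
  have hx1 : 4 * κ / p ≤ δ / 4 := by
    rw [div_le_iff₀ hp0]
    linarith
  have hg := geom_sum_bound (4 * κ / p) hx0 (by linarith) J
  have hpow : 0 ≤ (4 * κ / p) ^ (2 ^ J) := by positivity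
  linarith

theorem contain_ge {W : Type*} [Fintype W] (H : SimpleGraph W) (n : ℕ)
    (hW : Fintype.card W ≤ n) (κ : ℝ) (hκ0 : 0 ≤ κ)
    (hκ : ∀ F : H.Subgraph, (H.copyCount F.coe : ℝ) / 2
      ≤ ((⊤ : SimpleGraph (Fin n)).copyCount F.coe : ℝ) * κ ^ F.coe.edgeSet.ncard)
    (p δ : ℝ) (hp0 : 0 < p) (hp1 : p ≤ 1) (hδ0 : 0 < δ) (hδ1 : δ ≤ 1)
    (h16 : 16 * κ ≤ δ * p) (J : ℕ) (hJ : H.edgeSet.ncard < 2 ^ J) :
    1 - δ ≤ containProb n (1 - (1 - p) ^ J) H := by
  classical
  set X := (⊤ : SimpleGraph (Fin n)).edgeFinset with hX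
  have hsupp : ∀ A ∈ X.powerset, copyMass H n A ≠ 0 → A.card < 2 ^ J := by
    intro A _ hA
    obtain ⟨σ, hσ, rfl⟩ := copyMass_supp H n A hA
    rw [card_edgeImg H n σ hσ]
    exact hJ
  have hfail := spread_success_delta X p κ δ hp0 hp1 hκ0 hδ0 hδ1 h16 J (copyMass H n)
    (copyMass_nonneg H n)
    hsupp (copyMass_spread H n hW κ hκ0 hκ) (copyMass_total H n hW)
  set pJ : ℝ := 1 - (1 - p) ^ J with hpJ
  have hq0 : (0 : ℝ) ≤ 1 - p := by linarith
  have hq1 : (1 : ℝ) - p ≤ 1 := by linarith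
  have hpJ0 : 0 ≤ pJ := by
    have := pow_le_one₀ hq0 hq1 (n := J)
    linarith
  have hpJ1 : pJ ≤ 1 := by
    have : (0 : ℝ) ≤ (1 - p) ^ J := by positivity
    linarith
  unfold containProb
  rw [sum_gnp_eq n pJ (fun G => if 0 < G.copyCount H then 1 else 0)]
  have hpoint : ∀ A ∈ X.powerset,
      bw X pJ A * (1 - failInd (msupp X (copyMass H n)) A)
        ≤ bw X pJ A * (if 0 < (SimpleGraph.fromEdgeSet (A : Set (Sym2 (Fin n)))).copyCount H
            then 1 else 0) := by
    intro A _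
    apply mul_le_mul_of_nonneg_left _ (bw_nonneg X pJ hpJ0 hpJ1 A)
    by_cases h : ∀ S ∈ msupp X (copyMass H n), ¬ S ⊆ A
    · have : failInd (msupp X (copyMass H n)) A = 1 := by
        unfold failInd
        rw [if_pos h]
      rw [this, sub_self]
      split_ifs <;> norm_num
    · have hex : ∃ S ∈ msupp X (copyMass H n), S ⊆ A := by
        by_contra hcon
        apply h
        intro S hS hSA
        exact hcon ⟨S, hS, hSA⟩
      obtain ⟨S, hS, hSA⟩ := hex
      obtain ⟨σ, hσ, rfl⟩ := copyMass_supp H n S ((mem_msupp X (copyMass H n) S).mp hS).2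
      have hcopy : 0 < (SimpleGraph.fromEdgeSet (A : Set (Sym2 (Fin n)))).copyCount H := by
        rw [SimpleGraph.copyCount_pos]
        refine ⟨⟨⟨σ, ?_⟩, hσ⟩⟩
        intro a b hab
        rw [SimpleGraph.fromEdgeSet_adj]
        refine ⟨?_, fun h => hab.ne (hσ h)⟩
        apply Finset.mem_coe.mpr
        apply hSA
        rw [mem_edgeImg]
        exact ⟨s(a, b), hab, rfl⟩
      rw [if_pos hcopy]
      have := failInd_nonneg (msupp X (copyMass H n)) A
      linarith
  have hsum : ∑ A ∈ X.powerset, bw X pJ A * (1 - failInd (msupp X (copyMass H n)) A)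
      = 1 - Pfail X pJ (msupp X (copyMass H n)) := by
    unfold Pfail
    simp only [mul_sub, mul_one, Finset.sum_sub_distrib]
    rw [sum_bw]
  calc (1 : ℝ) - δ ≤ 1 - Pfail X pJ (msupp X (copyMass H n)) := by linarith
    _ = ∑ A ∈ X.powerset, bw X pJ A * (1 - failInd (msupp X (copyMass H n)) A) := hsum.symm
    _ ≤ _ := Finset.sum_le_sum hpoint


/-- The `(1 - ε)`-quantile of the probability of containing a copy of `H` is at most
`7776000 / ε * p_E(n,H) * (log n)^2`. -/
theorem contain_quantile (n : ℕ) (hn : 2 ≤ n) {W : Type*} [Fintype W] (H : SimpleGraph W)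
    (hW : Fintype.card W ≤ n) (ε : ℝ) (hε0 : 0 < ε) (hε1 : ε ≤ 1) :
    sInf {p : ℝ | 0 ≤ p ∧ p ≤ 1 ∧ 1 - ε ≤ containProb n p H}
      ≤ 7776000 / ε * pE n H * (Real.log n) ^ 2 := by
  obtain ⟨hκ0, hκ1, hκmem⟩ := pEtilde_mem n H hW
  set κ := pEtilde n H with hκdef
  have hκ : ∀ F : H.Subgraph, (H.copyCount F.coe : ℝ) / 2
      ≤ ((⊤ : SimpleGraph (Fin n)).copyCount F.coe : ℝ) * κ ^ F.coe.edgeSet.ncard := by
    intro F
    have := hκmem F
    rw [expectedCopies_eq] at this
    exact this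
  set J := 2 * Nat.log 2 n + 2 with hJdef
  have hJ := edge_count_lt n H hW
  have hJlog := rounds_le_log n hn
  have hJpos : (0 : ℝ) < (J : ℝ) := by
    have : 0 < J := by omega
    exact_mod_cast this
  have hJ1 : (1 : ℝ) ≤ (J : ℝ) := by
    have : 1 ≤ J := by omega
    exact_mod_cast this
  have hlogn : (0 : ℝ) ≤ Real.log n :=
    Real.log_nonneg (by exact_mod_cast (by omega : 1 ≤ n))
  set S : Set ℝ := {p : ℝ | 0 ≤ p ∧ p ≤ 1 ∧ 1 - ε ≤ containProb n p H} with hS
  have hbdd : BddBelow S := ⟨0, fun p hp => hp.1⟩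
  have hS1 : sInf S ≤ 1 := by
    rcases Set.eq_empty_or_nonempty S with h | ⟨x, hx⟩
    · rw [h, Real.sInf_empty]
      norm_num
    · exact (csInf_le hbdd hx).trans hx.2.1
  -- the basic bound: any admissible `p` gives `sInf S ≤ J * p`
  have hbasic : ∀ p : ℝ, 0 < p → p ≤ 1 → 16 * κ ≤ ε * p → sInf S ≤ J * p := by
    intro p hp0 hp1 h16
    have hge := contain_ge H n hW κ hκ0 hκ p ε hp0 hp1 hε0 hε1 h16 J hJ
    have hq0 : (0 : ℝ) ≤ 1 - p := by linarith
    have hq1 : (1 : ℝ) - p ≤ 1 := by linarith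
    have hpJ0 : 0 ≤ 1 - (1 - p) ^ J := by
      have := pow_le_one₀ hq0 hq1 (n := J)
      linarith
    have hpJ1 : 1 - (1 - p) ^ J ≤ 1 := by
      have : (0 : ℝ) ≤ (1 - p) ^ J := by positivity
      linarith
    have h1 : sInf S ≤ 1 - (1 - p) ^ J := csInf_le hbdd ⟨hpJ0, hpJ1, hge⟩
    have hbern := one_add_mul_le_pow (a := -p) (by linarith) J
    have h2 : (1 : ℝ) + -p = 1 - p := by ring
    rw [h2] at hbern
    linarith
  -- the quantile is at most `J * (16 κ / ε)`
  have hmain : sInf S ≤ J * (16 * κ / ε) := by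
    rcases hκ0.lt_or_eq with hpos | hzero
    · by_cases hbig : 16 * κ / ε ≤ 1
      · apply hbasic (16 * κ / ε) (by positivity) hbig
        rw [mul_div_cancel₀ _ hε0.ne']
      · have hgt : 1 < 16 * κ / ε := not_le.mp hbig
        nlinarith
    · by_contra hcon
      have hq : 0 < sInf S := by
        rw [← hzero] at hcon
        simp only [mul_zero, zero_div, not_le] at hcon
        exact hcon
      set p' : ℝ := min 1 (sInf S / (2 * J)) with hp'
      have hp'0 : 0 < p' := lt_min one_pos (by positivity)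
      have hp'1 : p' ≤ 1 := min_le_left _ _
      have h1 := hbasic p' hp'0 hp'1 (by rw [← hzero]; nlinarith)
      have h2 : p' ≤ sInf S / (2 * J) := min_le_right _ _
      have h3 : (J : ℝ) * p' ≤ J * (sInf S / (2 * J)) := mul_le_mul_of_nonneg_left h2 hJpos.le
      have h4 : (J : ℝ) * (sInf S / (2 * J)) = sInf S / 2 := by
        field_simp
      linarith
  have hκle := pEtilde_le_log n hn H hW
  have hpE0 : 0 ≤ pE n H := (pE_mem n H hW).1
  have h16J : 16 * (J : ℝ) ≤ 100 * Real.log n := by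
    have : (32 : ℝ) * ((2 * Nat.log 2 n + 2 : ℕ) : ℝ) ≤ 200 * Real.log n := hJlog
    rw [hJdef]
    linarith
  calc sInf S ≤ J * (16 * κ / ε) := hmain
    _ = (16 * (J : ℝ)) * κ / ε := by ring
    _ ≤ (100 * Real.log n) * (77760 * Real.log n * pE n H) / ε := by
        apply div_le_div_of_nonneg_right _ hε0.le
        apply mul_le_mul h16J hκle hκ0
        positivity
    _ = 7776000 / ε * pE n H * (Real.log n) ^ 2 := by ring

end Vale.Agent.Lib.P063
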